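import Vale.Agent.P329.Grp

namespace Vale.Agent.Results.P329.AbelianByElementary
open Vale.Agent.P329

theorem result (A : Type) [Finite A] (ι : Type) [Finite ι] (G : ι → Type) [∀ i, Group (G i)]
    [∀ i, Finite (G i)]
    (hG : ∀ i, ∃ (p : ℕ) (N : Subgroup (G i)), p.Prime ∧ N.Normal ∧
      (∀ x ∈ N, ∀ y ∈ N, x * y = y * x) ∧ (∀ x y : G i, x * y * x⁻¹ * y⁻¹ ∈ N) ∧
      ∀ x : G i, x ^ p ∈ N)
    (φ : FreeMonoid A →* ∀ i, G i) (L : Language A)
    (hL : ∀ u v : List A, φ (FreeMonoid.ofList u) = φ (FreeMonoid.ofList v) → (u ∈ L ↔ v ∈ L)) :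
    ∃ E : GRE A, E.sh ≤ 1 ∧ E.lang = L := by
  have h1 : ∀ i, Fn 1 fun w : List A => φ (FreeMonoid.ofList w) i := fun i => by
    obtain ⟨p, N, hp, hN, h1, h2, h3⟩ := hG i
    haveI := Fact.mk hp
    have e : ∀ w : List A, φ (FreeMonoid.ofList w) i =
        (w.map fun a => φ (FreeMonoid.of a) i).prod := fun w => by
      induction w with
      | nil => simp
      | cons a w ih => simp [ih]
    simpa only [e] using fn_grp N h1 h2 h3 fun a => φ (FreeMonoid.of a) i
  obtain ⟨E, h2, h3⟩ := ((Fn.pi h1).of_det (g := fun w => w ∈ L) fun w w' e =>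
    propext (hL w w' e)) True
  exact ⟨E, h2, Set.ext fun w => (h3 w).trans (by simp; rfl)⟩

end Vale.Agent.Results.P329.AbelianByElementary
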